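import Vale.Agent.P032.H800.W30.AD

/-!
# P032: hexagons around a centre with six colours, box tables (W30, rows A1)
-/

open Vale.Agent.P032.Words.Trie

namespace Vale.Agent.P032.H800.W30.A

theorem c1 : csP D J T 1 = true := by decide +kernel
theorem c4 : csP D J T 4 = true := by decide +kernel
theorem c7 : csP D J T 7 = true := by decide +kernel
theorem c10 : csP D J T 10 = true := by decide +kernel
theorem c13 : csP D J T 13 = true := by decide +kernel

end Vale.Agent.P032.H800.W30.A
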